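import Mathlib

open Set Matroid

namespace Vale.Agent.P068

/-- The pair `(M, N)` of matroids (on the same ground set) satisfies intersection: some common
independent set `J_M ∪ J_N`, with `J_M` and `J_N` disjoint, has
`cl_M(J_M) ∪ cl_N(J_N) = E`. -/
def SatisfiesIntersection {α : Type*} (M N : Matroid α) : Prop :=
  ∃ JM JN : Set α, Disjoint JM JN ∧ M.Indep (JM ∪ JN) ∧ N.Indep (JM ∪ JN) ∧
    M.closure JM ∪ N.closure JN = M.E

/-- The family `M i` of matroids on the common ground set `E` has a packing/covering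
partition. -/
def HasPackingCovering {α Θ : Type*} (E : Set α) (M : Θ → Matroid α) : Prop :=
  ∃ P C : Set α, Disjoint P C ∧ P ∪ C = E ∧ ∃ S I : Θ → Set α,
    (∀ i, S i ⊆ P) ∧ (∀ i, I i ⊆ C) ∧ (∀ i j, i ≠ j → Disjoint (S i) (S j)) ∧
    (∀ i, (M i ↾ P).closure (S i) = P) ∧ (∀ i, (((M i)✶ ↾ C)✶).Indep (I i)) ∧ ⋃ i, I i = C

end Vale.Agent.P068
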