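import Vale.Agent.P068.Wild
import Vale.Agent.P068.Defs

open Set Matroid

namespace Vale.Agent.P068

/-- vertices of the two-sided path -/
abbrev VV := Bool × ℕ

/-- positions of elements -/
def pos : VV × GG → Option VV × ℕ
  | ((s, j), (true, k)) => (some (s, j), k)
  | ((_, 0), (false, k)) => (none, k)
  | ((s, j + 1), (false, k)) => (some (s, j), k)

/-- the partition matroid -/
noncomputable def NN : Matroid (VV × GG) := (freeOn (univ : Set (Option VV × ℕ))).comap pos

theorem NN_E : NN.E = univ := by
  simp [NN]

theorem NN_indep {I : Set (VV × GG)} : NN.Indep I ↔ InjOn pos I := by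
  unfold NN
  rw [comap_indep_iff]
  simp

theorem NN_closure {J : Set (VV × GG)} (hJ : NN.Indep J) {e : VV × GG} (he : e ∈ NN.closure J) :
    ∃ e' ∈ J, pos e' = pos e := by
  rw [hJ.mem_closure_iff] at he
  rcases he with he | he
  · by_contra hcon
    push Not at hcon
    apply he.not_indep
    rw [NN_indep]
    rw [NN_indep] at hJ
    have heJ : e ∉ J := fun h => hcon e h rfl
    rw [injOn_insert heJ]
    refine ⟨hJ, ?_⟩
    rintro ⟨e', he', h⟩
    exact hcon e' he' h
  · exact ⟨e, he, rfl⟩

theorem pos_some {e : VV × GG} {s : Bool} {j k : ℕ} (h : pos e = (some (s, j), k)) :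
    e = ((s, j), (true, k)) ∨ e = ((s, j + 1), (false, k)) := by
  obtain ⟨⟨s', j'⟩, ⟨c, k'⟩⟩ := e
  cases c with
  | true =>
    simp only [pos, Prod.mk.injEq, Option.some.injEq] at h
    obtain ⟨⟨rfl, rfl⟩, rfl⟩ := h
    exact Or.inl rfl
  | false =>
    cases j' with
    | zero => simp [pos] at h
    | succ j' =>
      simp only [pos, Prod.mk.injEq, Option.some.injEq] at h
      obtain ⟨⟨rfl, rfl⟩, rfl⟩ := h
      exact Or.inr rfl

theorem pos_none {e : VV × GG} {k : ℕ} (h : pos e = (none, k)) :
    e = ((true, 0), (false, k)) ∨ e = ((false, 0), (false, k)) := by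
  obtain ⟨⟨s', j'⟩, ⟨c, k'⟩⟩ := e
  cases c with
  | true => simp [pos] at h
  | false =>
    cases j' with
    | zero =>
      simp only [pos, Prod.mk.injEq, true_and] at h
      subst h
      cases s' with
      | true => exact Or.inl rfl
      | false => exact Or.inr rfl
    | succ j' => simp [pos] at h

variable {Ω : Type} [LinearOrder Ω] [WellFoundedLT Ω] (R : Rank Ω)

theorem no_intersection (V : Matroid GG) (hVE : V.E = univ) (hMid : ∀ B, V.IsBase B → Mid R B)
    (hunif : ∀ Y, V.Indep Y ∨ ∃ B, V.IsBase B ∧ B ⊆ Y) :
    ¬ SatisfiesIntersection (Matroid.sum' fun _ : VV => V) NN := by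
  rintro ⟨JM, JN, hdis, hM, hN, hcl⟩
  have hE : (Matroid.sum' fun _ : VV => V).E = Set.univ := by
    simp only [Matroid.sum'_ground_eq, hVE, image_univ]
    ext ⟨v, x⟩
    simp
  rw [hE] at hcl
  set J := JM ∪ JN with hJ
  have hInd : ∀ v : VV, V.Indep (Prod.mk v ⁻¹' J) := by
    rw [sum'_indep_iff] at hM
    exact hM
  have hNJ : InjOn pos J := NN_indep.1 hN
  have hHi : ∀ I, V.Indep I → ¬ Hi R I := by
    intro I hI h
    obtain ⟨B, hB, hIB⟩ := hI.exists_isBase_superset
    exact (hMid B hB).1 (Hi_up R hIB h)
  -- uniform property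
  have hbase : ∀ (I : Set GG) (x : GG), V.Indep I → ¬ V.Indep (insert x I) → V.IsBase I := by
    intro I x hI hx
    have hcl : x ∈ V.closure I := by
      rw [hI.mem_closure_iff]
      left
      rw [dep_iff]
      exact ⟨hx, by rw [hVE]; exact subset_univ _⟩
    rcases hunif (insert x I) with h | ⟨B, hB, hBI⟩
    · exact absurd h hx
    · apply hI.isBase_of_ground_subset_closure
      have h1 : insert x I ⊆ V.closure I := by
        apply insert_subset hcl
        exact V.subset_closure I (by rw [hVE]; exact subset_univ _)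
      have h2 : V.closure B ⊆ V.closure (V.closure I) := V.closure_subset_closure (hBI.trans h1)
      rw [Matroid.closure_closure, hB.closure_eq] at h2
      exact h2
  let Sp : VV → Prop := fun v => V.IsBase (Prod.mk v ⁻¹' JM)
  have hNi : NN.Indep JN := hN.subset subset_union_right
  have hMi : (Matroid.sum' fun _ : VV => V).Indep JM := hM.subset subset_union_left
  have L1 : ∀ v, ¬ Sp v → ∀ x, (v, x) ∈ JM ∨ ∃ e' ∈ JN, pos e' = pos (v, x) := by
    intro v hv x
    have h1 : (v, x) ∈ (Matroid.sum' fun _ : VV => V).closure JM ∪ NN.closure JN := by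
      rw [hcl]
      exact mem_univ _
    rcases h1 with h1 | h1
    · rw [hMi.mem_closure_iff] at h1
      rcases h1 with h1 | h1
      · exfalso
        have h2 := h1.not_indep
        rw [sum'_indep_iff] at h2
        push Not at h2
        obtain ⟨w, hw⟩ := h2
        rw [sum'_indep_iff] at hMi
        by_cases hvw : w = v
        · subst hvw
          have h3 : Prod.mk w ⁻¹' (insert (w, x) JM) = insert x (Prod.mk w ⁻¹' JM) := by
            ext y
            simp
          rw [h3] at hw
          exact hv (hbase _ x (hMi w) hw)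
        · have h3 : Prod.mk w ⁻¹' (insert (v, x) JM) = Prod.mk w ⁻¹' JM := by
            ext y
            simp [hvw]
          rw [h3] at hw
          exact hw (hMi w)
      · exact Or.inl h1
    · exact Or.inr (NN_closure hNi h1)
  have L2 : ∀ v, Sp v → Prod.mk v ⁻¹' J = Prod.mk v ⁻¹' JM := by
    intro v hv
    symm
    exact hv.eq_of_subset_indep (hInd v) (preimage_mono subset_union_left)
  have L2' : ∀ v, Sp v → ∀ x, (v, x) ∉ JN := by
    intro v hv x hx
    have h1 : x ∈ Prod.mk v ⁻¹' J := Or.inr hx
    rw [L2 v hv] at h1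
    exact (Set.disjoint_left.1 hdis) h1 hx
  let a : VV → Set ℕ := fun v => aP (Prod.mk v ⁻¹' J)
  let b : VV → Set ℕ := fun v => bP (Prod.mk v ⁻¹' J)
  have L3 : ∀ s j, a (s, j + 1) ⊆ b (s, j) := by
    intro s j k hk hk'
    have h1 : ((s, j + 1), (false, k)) ∈ J := hk
    have h2 : ((s, j), (true, k)) ∈ J := hk'
    have h3 := hNJ h1 h2 rfl
    simp at h3
  have L3' : ∀ k, k ∈ a (true, 0) → k ∉ a (false, 0) := by
    intro k hk hk'
    have h1 : (((true, 0) : VV), ((false, k) : GG)) ∈ J := hk
    have h2 : (((false, 0) : VV), ((false, k) : GG)) ∈ J := hk'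
    have h3 := hNJ h1 h2 rfl
    simp at h3
  have descU : ∀ s : Bool, (∀ j, b (s, j) = a (s, j + 1)) → a (s, 0) ∈ R.U → False := by
    intro s hs h0
    have key : ∀ o : Ω, ∀ j, a (s, j) ∈ R.U → R.ρ (a (s, j)) = o → False := by
      intro o
      induction o using WellFoundedLT.induction with
      | ind o ih =>
        intro j hj ho
        have h1 : ¬ Hi R (Prod.mk (s, j) ⁻¹' J) := hHi _ (hInd _)
        have h2 : b (s, j) ∈ R.U ∧ R.ρ (b (s, j)) < R.ρ (a (s, j)) := by
          by_contra hcon
          apply h1
          refine ⟨hj, ?_⟩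
          by_contra hcon2
          push Not at hcon2
          exact hcon ⟨hcon2.1, hcon2.2⟩
        rw [hs j, ho] at h2
        exact ih _ h2.2 (j + 1) h2.1 rfl
    exact key _ 0 h0 rfl
  have descN : ∀ s : Bool, (∀ j, Sp (s, j)) → a (s, 0) ∉ R.U → False := by
    intro s hs h0
    have key : ∀ o : Ω, ∀ j, a (s, j) ∉ R.U → R.ρ (a (s, j)) = o → False := by
      intro o
      induction o using WellFoundedLT.induction with
      | ind o ih =>
        intro j hj ho
        have h1 : ¬ Lo R (Prod.mk (s, j) ⁻¹' J) := by
          rw [L2 _ (hs j)]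
          exact (hMid _ (hs j)).2
        have h2 : b (s, j) ∉ R.U ∧ R.ρ (b (s, j)) < R.ρ (a (s, j)) := by
          by_contra hcon
          apply h1
          refine ⟨hj, ?_⟩
          by_contra hcon2
          push Not at hcon2
          exact hcon ⟨hcon2.1, hcon2.2⟩
        have h3 : a (s, j + 1) ∉ R.U := fun h => h2.1 (R.U_up _ _ h (L3 s j))
        have h4 := R.ρ_mono _ _ (L3 s j) h2.1
        rw [ho] at h2
        exact ih _ (h4.trans_lt h2.2) (j + 1) h3 rfl
    exact key _ 0 h0 rfl
  have full : ∀ v, a v = univ → False := by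
    intro v hv
    apply hHi _ (hInd v)
    have hv' : aP (Prod.mk v ⁻¹' J) = univ := hv
    refine ⟨?_, Or.inr ?_⟩
    · rw [hv']
      exact R.univ_mem
    · rw [hv']
      exact R.ρ_univ _
  -- adjacent vertices have the same status
  have adj : ∀ s j, Sp (s, j) ↔ Sp (s, j + 1) := by
    intro s j
    constructor
    · intro h1
      by_contra h2
      apply full (s, j + 1)
      ext k
      simp only [mem_univ, iff_true]
      show ((s, j + 1), (false, k)) ∈ J
      rcases L1 _ h2 (false, k) with h | ⟨e', he', h⟩
      · exact Or.inl h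
      · rcases pos_some h with rfl | rfl
        · exact absurd he' (L2' _ h1 _)
        · exact Or.inr he'
    · intro h1
      by_contra h2
      have h3 : ∀ k, ((s, j), (true, k)) ∈ J := by
        intro k
        rcases L1 _ h2 (true, k) with h | ⟨e', he', h⟩
        · exact Or.inl h
        · rcases pos_some h with rfl | rfl
          · exact Or.inr he'
          · exact absurd he' (L2' _ h1 _)
      have h4 : a (s, j + 1) = ∅ := by
        ext k
        simp only [mem_empty_iff_false, iff_false]
        intro hk
        exact (L3 s j hk) (h3 k)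
      apply (hMid _ h1).2
      have h5 : aP (Prod.mk (s, j + 1) ⁻¹' JM) = ∅ := by
        rw [← L2 _ h1]
        exact h4
      refine ⟨?_, Or.inr ?_⟩
      · rw [h5]
        exact R.empty_notMem
      · rw [h5]
        exact R.ρ_bot _
  have adj0 : Sp (true, 0) ↔ Sp (false, 0) := by
    have key : ∀ s : Bool, Sp (s, 0) → Sp (!s, 0) := by
      intro s h1
      by_contra h2
      apply full (!s, 0)
      ext k
      simp only [mem_univ, iff_true]
      show ((!s, 0), (false, k)) ∈ J
      rcases L1 _ h2 (false, k) with h | ⟨e', he', h⟩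
      · exact Or.inl h
      · have h4 := pos_none (e := e') (k := k) h
        cases s with
        | true =>
          rcases h4 with rfl | rfl
          · exact absurd he' (L2' _ h1 _)
          · exact Or.inr he'
        | false =>
          rcases h4 with rfl | rfl
          · exact Or.inr he'
          · exact absurd he' (L2' _ h1 _)
    exact ⟨key true, key false⟩
  have allsame : ∀ s j, Sp (s, j) ↔ Sp (true, 0) := by
    intro s j
    induction j with
    | zero =>
      cases s with
      | true => exact Iff.rfl
      | false => exact adj0.symm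
    | succ j ih => exact (adj s j).symm.trans ih
  by_cases hall : Sp (true, 0)
  · by_cases h1 : a (true, 0) ∈ R.U
    · apply descN false (fun j => (allsame false j).2 hall)
      intro h2
      have h3 := R.U_inter _ _ h1 h2
      have h4 : a (true, 0) ∩ a (false, 0) = ∅ := by
        ext k
        simp only [mem_inter_iff, mem_empty_iff_false, iff_false]
        rintro ⟨hk1, hk2⟩
        exact L3' k hk1 hk2
      rw [h4] at h3
      exact R.empty_notMem h3
    · exact descN true (fun j => (allsame true j).2 hall) h1
  · have hno : ∀ s j, ¬ Sp (s, j) := fun s j h => hall ((allsame s j).1 h)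
    have hb : ∀ s j, b (s, j) = a (s, j + 1) := by
      intro s j
      apply Subset.antisymm _ (L3 s j)
      intro k hk
      have h1 : ((s, j), (true, k)) ∉ J := hk
      show ((s, j + 1), (false, k)) ∈ J
      rcases L1 _ (hno s j) (true, k) with h | ⟨e', he', h⟩
      · exact absurd (Or.inl h) h1
      · rcases pos_some h with rfl | rfl
        · exact absurd (Or.inr he') h1
        · exact Or.inr he'
    by_cases h1 : a (true, 0) ∈ R.U
    · exact descU true (hb true) h1
    · apply descU false (hb false)
      have h2 : (a (true, 0))ᶜ ∈ R.U := by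
        apply R.mem_of_compl
        rw [compl_compl]
        exact h1
      refine R.U_up _ _ h2 ?_
      intro k hk
      have h1 : (((true, 0) : VV), ((false, k) : GG)) ∉ J := hk
      show (((false, 0) : VV), ((false, k) : GG)) ∈ J
      rcases L1 _ (hno true 0) (false, k) with h | ⟨e', he', h⟩
      · exact absurd (Or.inl h) h1
      · rcases pos_none (e := e') (k := k) h with rfl | rfl
        · exact absurd (Or.inr he') h1
        · exact Or.inr he'

/-- A packing/covering partition for `(M, N✶)` gives intersection for `(M, N)`. -/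
theorem intersection_of_pc {α : Type*} (M N : Matroid α) (hM : M.E = univ) (hN : N.E = univ)
    (h : HasPackingCovering univ (fun b : Bool => if b then M else N✶)) :
    SatisfiesIntersection M N := by
  obtain ⟨P, C, hPC, hPCu, S, I, hSP, hIC, hS, hcl, hI, hcov⟩ := h
  have hCeq : C = univ \ P := by
    ext x
    simp only [mem_sdiff, mem_univ, true_and]
    constructor
    · intro hx hx'
      exact (Set.disjoint_left.1 hPC) hx' hx
    · intro hx
      have : x ∈ P ∪ C := by rw [hPCu]; exact mem_univ x
      rcases this with h | h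
      · exact absurd h hx
      · exact h
  have hPeq : P = univ \ C := by
    rw [hCeq]
    simp
  have hcl1 := hcl true
  have hcl2 := hcl false
  have hI1 := hI true
  have hI2 := hI false
  simp only [if_true, Bool.false_eq_true, if_false] at hcl1 hcl2 hI1 hI2
  have hPM : P ⊆ M.E := by rw [hM]; exact subset_univ _
  have hCN : C ⊆ N.E := by rw [hN]; exact subset_univ _
  -- JM
  obtain ⟨JM, hJM⟩ := M.exists_isBasis (S true) ((hSP true).trans hPM)
  have hPcl : P ⊆ M.closure (S true) := by
    rw [restrict_closure_eq M (hSP true) hPM] at hcl1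
    rw [← hcl1]
    exact inter_subset_left
  have hJMP : M.IsBasis JM P := by
    apply hJM.indep.isBasis_of_subset_of_subset_closure (hJM.subset.trans (hSP true))
    rw [hJM.closure_eq_closure]
    exact hPcl
  -- JN
  have hsp : (N ↾ C).Spanning (C \ I false) := by
    have h1 : ((N ↾ C)✶).Indep (I false) := by
      rw [dual_dual] at hI2
      exact hI2
    have h2 := (coindep_def.2 h1).compl_spanning
    rw [restrict_ground_eq] at h2
    exact h2
  have hCcl : C ⊆ N.closure (C \ I false) := by
    rw [restrict_spanning_iff sdiff_subset hCN] at hsp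
    exact hsp
  obtain ⟨JN, hJN⟩ := N.exists_isBasis (C \ I false) (sdiff_subset.trans hCN)
  have hJNC : N.IsBasis JN C := by
    apply hJN.indep.isBasis_of_subset_of_subset_closure (hJN.subset.trans sdiff_subset)
    rw [hJN.closure_eq_closure]
    exact hCcl
  have hCI : C \ I false ⊆ I true := by
    intro x hx
    have h1 : x ∈ ⋃ i, I i := by rw [hcov]; exact hx.1
    rw [mem_iUnion] at h1
    obtain ⟨i, hi⟩ := h1
    cases i with
    | true => exact hi
    | false => exact absurd hi hx.2
  have hMi : M.Indep (JM ∪ JN) := by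
    have h1 : (M ／ P).Indep JN := by
      have h2 : M ／ P = (M✶ ↾ C)✶ := by
        rw [contract, delete_eq_restrict, dual_ground, hM, ← hCeq]
      rw [h2]
      exact hI1.subset (hJN.subset.trans hCI)
    rw [hJMP.contract_indep_iff] at h1
    rw [union_comm]
    exact h1.1
  have hNi : N.Indep (JM ∪ JN) := by
    have h1 : (N ／ C).Indep JM := by
      have h2 : N ／ C = (N✶ ↾ P)✶ := by
        rw [contract, delete_eq_restrict, dual_ground, hN, ← hPeq]
      rw [h2]
      have h3 : (N✶ ↾ P).Spanning (S false) := by
        rw [spanning_iff_closure_eq (by exact hSP false)]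
        exact hcl2
      have h4 := h3.compl_coindep
      rw [coindep_def] at h4
      refine h4.subset ?_
      rw [restrict_ground_eq]
      intro x hx
      refine ⟨hSP true (hJM.subset hx), fun hx' => ?_⟩
      exact (Set.disjoint_left.1 (hS true false (by simp))) (hJM.subset hx) hx'
    rw [hJNC.contract_indep_iff] at h1
    exact h1.1
  refine ⟨JM, JN, ?_, hMi, hNi, ?_⟩
  · exact hPC.mono hJMP.subset hJNC.subset
  · rw [hM]
    apply Subset.antisymm (subset_univ _)
    rw [← hPCu]
    apply union_subset_union
    · rw [hJMP.closure_eq_closure]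
      exact M.subset_closure P hPM
    · rw [hJNC.closure_eq_closure]
      exact N.subset_closure C hCN

open scoped Cardinal in
theorem main_result (hCH : Cardinal.continuum.{0} = Cardinal.aleph 1) :
    (∃ M N : Matroid ((Bool × ℕ) × (Bool × ℕ)), M.E = Set.univ ∧ N.E = Set.univ ∧
      ¬ SatisfiesIntersection M N) ∧
    (∃ M : Bool → Matroid ((Bool × ℕ) × (Bool × ℕ)), (∀ b, (M b).E = Set.univ) ∧
      ¬ HasPackingCovering Set.univ M) := by
  let Ω := (Cardinal.aleph.{0} 1).ord.ToType
  have hΩ : #Ω = Cardinal.aleph 1 := by simp [Ω]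
  have hcount : ∀ i : Ω, (Iio i).Countable := by
    intro i
    have h1 : #(Iio i) < Cardinal.aleph 1 := by
      have h0 := Cardinal.mk_Iio_lt i (by simp [Ω])
      rwa [hΩ] at h0
    rw [← Cardinal.le_aleph0_iff_set_countable]
    rw [← Cardinal.lt_aleph_one_iff]
    exact h1
  have h1 : #(Set ℕ) = #Ω := by
    rw [hΩ, ← hCH]
    simp
  have h2 : #(Set GG × Set GG) = #Ω := by
    rw [hΩ, ← hCH]
    simp [GG]
  obtain ⟨e1⟩ := Cardinal.eq.1 h1
  obtain ⟨e2⟩ := Cardinal.eq.1 h2
  obtain ⟨R⟩ := exists_rank hcount e1.symm e1.symm.surjective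
  obtain ⟨V, hVE, hMid, hunif⟩ := exists_wild R hcount e2.symm e2.symm.surjective
  have hE : (Matroid.sum' fun _ : VV => V).E = Set.univ := by
    simp only [Matroid.sum'_ground_eq, hVE, image_univ]
    ext ⟨v, x⟩
    simp
  have hno := no_intersection R V hVE hMid hunif
  refine ⟨⟨Matroid.sum' fun _ : VV => V, NN, hE, NN_E, hno⟩,
    fun b : Bool => if b then Matroid.sum' fun _ : VV => V else NN✶, ?_, fun h => ?_⟩
  · intro b
    cases b with
    | true => exact hE
    | false => exact NN_E
  · exact hno (intersection_of_pc _ _ hE NN_E h)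

end Vale.Agent.P068
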