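import Mathlib

open Set
open scoped ENNReal

namespace Vale.Agent.P068

noncomputable section

/-- weight of a natural number -/
def wt (n : ℕ) : ℝ≥0∞ := ((n : ℝ≥0∞) + 1)⁻¹

/-- weight of a set -/
def nu (Z : Set ℕ) : ℝ≥0∞ := ∑' n : Z, wt n

/-- the ideal of small sets -/
def Sm (Z : Set ℕ) : Prop := nu Z ≠ ⊤

theorem nu_mono {Z Z' : Set ℕ} (h : Z ⊆ Z') : nu Z ≤ nu Z' := ENNReal.tsum_mono_subtype wt h

theorem Sm.mono {Z Z' : Set ℕ} (h : Sm Z') (hZ : Z ⊆ Z') : Sm Z :=
  ne_top_of_le_ne_top h (nu_mono hZ)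

theorem Sm.union {Z Z' : Set ℕ} (h : Sm Z) (h' : Sm Z') : Sm (Z ∪ Z') :=
  ne_top_of_le_ne_top (ENNReal.add_ne_top.2 ⟨h, h'⟩) (ENNReal.tsum_union_le wt Z Z')

theorem wt_ne_top (n : ℕ) : wt n ≠ ⊤ := by
  unfold wt
  simp

theorem nu_finset (F : Finset ℕ) : nu (F : Set ℕ) = ∑ n ∈ F, wt n := by
  unfold nu
  exact Finset.tsum_subtype F wt

theorem sm_of_finite {Z : Set ℕ} (h : Z.Finite) : Sm Z := by
  obtain ⟨F, rfl⟩ := h.exists_finset_coe
  unfold Sm
  rw [nu_finset]
  exact (ENNReal.sum_lt_top.2 fun n _ => (wt_ne_top n).lt_top).ne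

theorem sm_empty : Sm ∅ := sm_of_finite finite_empty

theorem nu_univ : nu univ = ⊤ := by
  unfold nu
  rw [tsum_univ wt]
  by_contra h
  have h1 : Summable fun n : ℕ => (wt n).toReal := ENNReal.summable_toReal h
  have h2 : (fun n : ℕ => (wt n).toReal) = fun n : ℕ => 1 / ((n : ℝ) + 1) := by
    ext n
    unfold wt
    rw [ENNReal.toReal_inv, ENNReal.toReal_add (by simp) (by simp)]
    simp
  rw [h2] at h1
  have h3 : Summable fun n : ℕ => 1 / (((n + 1 : ℕ)) : ℝ) := by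
    simpa using h1
  rw [summable_nat_add_iff 1 (f := fun n : ℕ => 1 / (n : ℝ))] at h3
  exact Real.not_summable_one_div_natCast h3

theorem not_sm_univ : ¬ Sm univ := fun h => h nu_univ

theorem exists_finset_ge {Z : Set ℕ} (hZ : ¬ Sm Z) (c : ℕ) :
    ∃ F : Finset ℕ, (F : Set ℕ) ⊆ Z ∧ (c : ℝ≥0∞) ≤ nu (F : Set ℕ) := by
  have h1 : nu Z = ⊤ := by
    unfold Sm at hZ
    push Not at hZ
    exact hZ
  unfold nu at h1
  rw [ENNReal.tsum_eq_iSup_sum, iSup_eq_top] at h1
  obtain ⟨G, hG⟩ := h1 c (ENNReal.natCast_lt_top c)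
  refine ⟨G.map (Function.Embedding.subtype _), ?_, ?_⟩
  · intro x hx
    simp only [Finset.coe_map, Function.Embedding.subtype_apply, mem_image] at hx
    obtain ⟨y, _, rfl⟩ := hx
    exact y.2
  · rw [nu_finset, Finset.sum_map]
    exact hG.le

/-- pseudo-intersections of decreasing sequences of positive sets -/
theorem pseudo {V : ℕ → Set ℕ} (hV : ∀ n, ¬ Sm (V n)) (hmono : Antitone V) :
    ∃ U : Set ℕ, ¬ Sm U ∧ ∀ i, (U \ V i).Finite := by
  choose F hF1 hF2 using fun n => exists_finset_ge (hV n) n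
  refine ⟨⋃ n, (F n : Set ℕ), ?_, ?_⟩
  · unfold Sm
    push Not
    rw [eq_top_iff]
    rw [← ENNReal.iSup_natCast]
    apply iSup_le
    intro n
    exact (hF2 n).trans (nu_mono (subset_iUnion (fun n => (F n : Set ℕ)) n))
  · intro i
    have h1 : (⋃ n, (F n : Set ℕ)) \ V i ⊆ ⋃ n ∈ Finset.range i, (F n : Set ℕ) := by
      rintro x ⟨hx, hxV⟩
      simp only [mem_iUnion] at hx ⊢
      obtain ⟨n, hn⟩ := hx
      refine ⟨n, ?_, hn⟩
      rw [Finset.mem_range]
      by_contra hni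
      push Not at hni
      exact hxV (hmono hni (hF1 n hn))
    exact (Set.Finite.biUnion (Finset.finite_toSet _) fun n _ => Finset.finite_toSet _).subset h1

/-- every positive set splits in two positive sets -/
theorem split {Z : Set ℕ} (hZ : ¬ Sm Z) : ∃ s ⊆ Z, ¬ Sm s ∧ ¬ Sm (Z \ s) := by
  have h1 : ∀ N : ℕ, ∃ N', N < N' ∧ 1 ≤ nu (Z ∩ Ico N N') := by
    intro N
    have h2 : ¬ Sm (Z \ Iio N) := by
      intro h
      apply hZ
      refine (h.union (sm_of_finite (finite_Iio N))).mono ?_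
      intro x hx
      by_cases hxN : x < N
      · exact Or.inr hxN
      · exact Or.inl ⟨hx, hxN⟩
    obtain ⟨F, hF1, hF2⟩ := exists_finset_ge h2 1
    refine ⟨max (N + 1) (F.sup id + 1), by omega, ?_⟩
    have h3 : (F : Set ℕ) ⊆ Z ∩ Ico N (max (N + 1) (F.sup id + 1)) := by
      intro x hx
      have h4 := hF1 hx
      have h5 : x ≤ F.sup id := Finset.le_sup (f := id) hx
      refine ⟨h4.1, ?_, ?_⟩
      · exact not_lt.1 h4.2
      · omega
    simpa using hF2.trans (nu_mono h3)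
  choose g hg1 hg2 using h1
  let c : ℕ → ℕ := fun n => Nat.rec 0 (fun _ x => g x) n
  have hc : ∀ n, c (n + 1) = g (c n) := fun n => rfl
  have hcm : StrictMono c := strictMono_nat_of_lt_succ fun n => by
    rw [hc]
    exact hg1 _
  let T : ℕ → Set ℕ := fun n => Z ∩ Ico (c n) (c (n + 1))
  have hT1 : ∀ n, 1 ≤ nu (T n) := fun n => hg2 (c n)
  have hTd : ∀ m n, m < n → Disjoint (T m) (T n) := by
    intro m n hmn
    rw [Set.disjoint_left]
    rintro x ⟨_, hx1⟩ ⟨_, hx2⟩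
    have := hcm.monotone (Nat.succ_le_of_lt hmn)
    have h1 : x < c (m + 1) := hx1.2
    have h2 : c n ≤ x := hx2.1
    have h3 : c (m + 1) ≤ c n := this
    omega
  have hbig : ∀ (K : Set ℕ), K.Infinite → ¬ Sm (⋃ n ∈ K, T n) := by
    intro K hK hsm
    have h2 : ∀ m : ℕ, (m : ℝ≥0∞) ≤ nu (⋃ n ∈ K, T n) := by
      intro m
      obtain ⟨G, hG1, hG2⟩ := hK.exists_subset_card_eq m
      have h3 : (m : ℝ≥0∞) ≤ ∑ n ∈ G, nu (T n) := by
        rw [← hG2]
        calc ((G.card : ℕ) : ℝ≥0∞) = ∑ _n ∈ G, (1 : ℝ≥0∞) := by simp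
          _ ≤ _ := Finset.sum_le_sum fun n _ => hT1 n
      refine h3.trans ?_
      have h4 : ∑ n ∈ G, nu (T n) = nu (⋃ n ∈ G, T n) := by
        clear h3 hG2 hG1
        induction G using Finset.induction_on with
        | empty => simp [nu]
        | insert a G ha ih =>
          rw [Finset.sum_insert ha, ih, Finset.set_biUnion_insert]
          unfold nu
          rw [ENNReal.summable.tsum_union_disjoint (f := wt) ?_ ENNReal.summable]
          rw [Set.disjoint_left]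
          intro x hx hx'
          simp only [mem_iUnion] at hx'
          obtain ⟨b, hb, hxb⟩ := hx'
          rcases lt_trichotomy a b with h | h | h
          · exact (Set.disjoint_left.1 (hTd a b h)) hx hxb
          · exact ha (h ▸ hb)
          · exact (Set.disjoint_left.1 (hTd b a h)) hxb hx
      rw [h4]
      apply nu_mono
      intro x hx
      simp only [mem_iUnion] at hx ⊢
      obtain ⟨b, hb, hxb⟩ := hx
      exact ⟨b, hG1 hb, hxb⟩
    apply hsm
    rw [eq_top_iff, ← ENNReal.iSup_natCast]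
    exact iSup_le h2
  refine ⟨⋃ n ∈ {n | Even n}, T n, ?_, hbig {n | Even n} ?_,
    fun h => hbig {n | ¬ Even n} ?_ (h.mono ?_)⟩
  · intro x hx
    simp only [mem_iUnion] at hx
    obtain ⟨b, _, hxb⟩ := hx
    exact hxb.1
  · rw [Set.infinite_iff_exists_gt]
    intro a
    exact ⟨2 * a + 2, ⟨a + 1, by ring⟩, by omega⟩
  · rw [Set.infinite_iff_exists_gt]
    intro a
    refine ⟨2 * a + 1, ?_, by omega⟩
    simp
  · intro x hx
    simp only [mem_iUnion] at hx
    obtain ⟨b, hb, hxb⟩ := hx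
    refine ⟨hxb.1, ?_⟩
    intro hx'
    simp only [mem_iUnion] at hx'
    obtain ⟨b', hb', hxb'⟩ := hx'
    rcases lt_trichotomy b b' with h | h | h
    · exact (Set.disjoint_left.1 (hTd b b' h)) hxb hxb'
    · exact hb (h ▸ hb')
    · exact (Set.disjoint_left.1 (hTd b' b h)) hxb' hxb

/-- thin sets meeting countably many infinite sets -/
theorem thin_hit (C : ℕ → Set ℕ) (hC : ∀ j, (C j).Infinite) :
    ∃ r : ℕ → ℕ, StrictMono r ∧ (∀ j, r j ∈ C j) ∧ Sm (range r) := by
  have h1 : ∀ j N : ℕ, ∃ n, N < n ∧ n ∈ C j := by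
    intro j N
    obtain ⟨n, hn1, hn2⟩ := (hC j).exists_gt N
    exact ⟨n, hn2, hn1⟩
  choose g hg1 hg2 using h1
  let r : ℕ → ℕ := fun j => Nat.rec (g 0 1) (fun j x => g (j + 1) (max x (2 ^ (j + 1)))) j
  have hr : ∀ j, r (j + 1) = g (j + 1) (max (r j) (2 ^ (j + 1))) := fun j => rfl
  have hrm : StrictMono r := strictMono_nat_of_lt_succ fun n => by
    rw [hr]
    exact lt_of_le_of_lt (le_max_left _ _) (hg1 _ _)
  have hrC : ∀ j, r j ∈ C j := by
    intro j
    cases j with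
    | zero => exact hg2 0 1
    | succ j => exact hg2 (j + 1) _
  have hr2 : ∀ j, 2 ^ j ≤ r j := by
    intro j
    cases j with
    | zero => exact (hg1 0 1).le
    | succ j =>
      rw [hr]
      exact (le_max_right _ _).trans (hg1 _ _).le
  refine ⟨r, hrm, hrC, ?_⟩
  unfold Sm nu
  have h2 : ∑' n : range r, wt n = ∑' j, wt (r j) := by
    rw [← (Equiv.ofInjective r hrm.injective).tsum_eq]
    rfl
  rw [h2]
  have h3 : ∑' j, wt (r j) ≤ ∑' j : ℕ, (2 : ℝ≥0∞)⁻¹ ^ j := by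
    apply ENNReal.tsum_le_tsum
    intro j
    unfold wt
    rw [← ENNReal.inv_pow, ENNReal.inv_le_inv]
    have h5 := (Nat.cast_le (α := ℝ≥0∞)).2 (hr2 j)
    push_cast at h5
    exact h5.trans (le_add_of_nonneg_right zero_le)
  refine ne_top_of_le_ne_top ?_ h3
  rw [ENNReal.tsum_geometric]
  simp

end

end Vale.Agent.P068
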