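import Vale.Agent.P068.Ideal

open Set

namespace Vale.Agent.P068

noncomputable section

variable {Ω : Type} [LinearOrder Ω] [WellFoundedLT Ω]

/-- recursion with choice -/
theorem wf_choice {β : Type*} [Nonempty β] (P : Ω → (Ω → β) → β → Prop)
    (hloc : ∀ a g g' x, (∀ b, b < a → g b = g' b) → P a g x → P a g' x) :
    ∃ f : Ω → β, ∀ a, (∃ x, P a f x) → P a f (f a) := by
  classical
  have wf : WellFounded (fun a b : Ω => a < b) := wellFounded_lt
  let F : ∀ a : Ω, (∀ b, b < a → β) → β := fun a rec =>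
    Classical.epsilon (P a (fun b => if h : b < a then rec b h else Classical.arbitrary β))
  let f : Ω → β := wf.fix F
  refine ⟨f, fun a hex => ?_⟩
  have hfa : f a = F a (fun b _ => f b) := wf.fix_eq F a
  obtain ⟨x, hx⟩ := hex
  have h1 : ∃ x, P a (fun b => if h : b < a then f b else Classical.arbitrary β) x := by
    refine ⟨x, hloc a f _ x ?_ hx⟩
    intro b hb
    simp [hb]
  have h2 : P a (fun b => if h : b < a then f b else Classical.arbitrary β) (f a) := by
    rw [hfa]
    exact Classical.epsilon_spec h1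
  refine hloc a _ f _ ?_ h2
  intro b hb
  simp [hb]

theorem exists_tower (hcount : ∀ i : Ω, (Iio i).Countable) (e : Ω → Set ℕ) :
    ∃ f : Ω → Set ℕ, (∀ i, ¬ Sm (f i)) ∧ (∀ i j, i < j → Sm (f j \ f i)) ∧
      ∀ i, Sm (f i ∩ e i) ∨ Sm (f i \ e i) := by
  let P : Ω → (Ω → Set ℕ) → Set ℕ → Prop := fun i g x =>
    ¬ Sm x ∧ (∀ j, j < i → Sm (x \ g j)) ∧ (Sm (x ∩ e i) ∨ Sm (x \ e i))
  obtain ⟨f, hf⟩ := wf_choice P (by
    rintro a g g' x hg ⟨h1, h2, h3⟩
    refine ⟨h1, fun j hj => ?_, h3⟩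
    rw [← hg j hj]
    exact h2 j hj)
  have key : ∀ i, P i f (f i) := by
    intro i
    induction i using WellFoundedLT.induction with
    | ind i ih =>
      apply hf
      have hW : ∃ W : Set ℕ, ¬ Sm W ∧ ∀ j, j < i → Sm (W \ f j) := by
        rcases (Iio i).eq_empty_or_nonempty with hemp | hne
        · refine ⟨univ, not_sm_univ, fun j hj => ?_⟩
          have : j ∈ Iio i := hj
          rw [hemp] at this
          exact absurd this (notMem_empty j)
        · obtain ⟨s, hs⟩ := (hcount i).exists_eq_range hne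
          let V : ℕ → Set ℕ := fun n => ⋂ k ∈ Finset.range (n + 1), f (s k)
          have hsi : ∀ k, s k < i := fun k => by
            have : s k ∈ Iio i := by rw [hs]; exact mem_range_self k
            exact this
          have hVanti : Antitone V := by
            intro m n hmn x hx
            simp only [V, mem_iInter, Finset.mem_range] at hx ⊢
            intro k hk
            exact hx k (by omega)
          have hVsm : ∀ n, ∀ T : Set ℕ, (∀ k, k ≤ n → Sm (T \ f (s k))) → Sm (T \ V n) := by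
            intro n
            induction n with
            | zero =>
              intro T hT
              refine (hT 0 le_rfl).mono ?_
              rintro x ⟨hx1, hx2⟩
              refine ⟨hx1, fun hx3 => hx2 ?_⟩
              simp only [V, mem_iInter, Finset.mem_range]
              intro k hk
              have : k = 0 := by omega
              rw [this]
              exact hx3
            | succ n ihn =>
              intro T hT
              refine ((ihn T fun k hk => hT k (by omega)).union (hT (n + 1) le_rfl)).mono ?_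
              rintro x ⟨hx1, hx2⟩
              by_cases hx3 : x ∈ V n
              · right
                refine ⟨hx1, fun hx4 => hx2 ?_⟩
                simp only [V, mem_iInter, Finset.mem_range] at hx3 ⊢
                intro k hk
                rcases Nat.lt_or_ge k (n + 1) with h | h
                · exact hx3 k h
                · have : k = n + 1 := by omega
                  rw [this]
                  exact hx4
              · exact Or.inl ⟨hx1, hx3⟩
          have hmax : ∀ n, ∃ k ≤ n, ∀ k' ≤ n, s k' ≤ s k := by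
            intro n
            obtain ⟨k, hk1, hk2⟩ := Finset.exists_max_image (Finset.range (n + 1)) s ⟨0, by simp⟩
            refine ⟨k, by simpa [Nat.lt_succ_iff] using hk1, fun k' hk' => hk2 k' ?_⟩
            simp [Nat.lt_succ_iff, hk']
          have hVpos : ∀ n, ¬ Sm (V n) := by
            intro n hVn
            obtain ⟨k, hk, hkmax⟩ := hmax n
            have h1 := ih (s k) (hsi k)
            apply h1.1
            have h2 : Sm (f (s k) \ V n) := by
              apply hVsm
              intro k' hk'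
              rcases (hkmax k' hk').lt_or_eq with h | h
              · exact h1.2.1 _ h
              · rw [h]
                simpa using sm_empty
            refine (h2.union hVn).mono ?_
            intro x hx
            by_cases hxV : x ∈ V n
            · exact Or.inr hxV
            · exact Or.inl ⟨hx, hxV⟩
          obtain ⟨W, hW1, hW2⟩ := pseudo hVpos hVanti
          refine ⟨W, hW1, fun j hj => ?_⟩
          have : j ∈ range s := by rw [← hs]; exact hj
          obtain ⟨k, rfl⟩ := this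
          refine (sm_of_finite (hW2 k)).mono ?_
          rintro x ⟨hx1, hx2⟩
          refine ⟨hx1, fun hx3 => hx2 ?_⟩
          simp only [V, mem_iInter, Finset.mem_range] at hx3
          exact hx3 k (by omega)
      obtain ⟨W, hW1, hW2⟩ := hW
      by_cases hd : Sm (W ∩ e i)
      · exact ⟨W, hW1, hW2, Or.inl hd⟩
      · refine ⟨W ∩ e i, hd, fun j hj => (hW2 j hj).mono ?_, Or.inr ?_⟩
        · exact sdiff_subset_sdiff_left inter_subset_left
        · have : (W ∩ e i) \ e i = ∅ := by
            ext x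
            simp
          rw [this]
          exact sm_empty
  exact ⟨f, fun i => (key i).1, fun i j hij => (key j).2.1 i hij, fun i => (key i).2.2⟩

/-- An ultrafilter with a rank function. -/
structure Rank (Ω : Type) [LinearOrder Ω] where
  U : Set (Set ℕ)
  ρ : Set ℕ → Ω
  U_up : ∀ Z Z', Z ∈ U → Z ⊆ Z' → Z' ∈ U
  U_inter : ∀ Z Z', Z ∈ U → Z' ∈ U → Z ∩ Z' ∈ U
  U_compl : ∀ Z, Z ∈ U ↔ Zᶜ ∉ U
  U_inv : ∀ Z Z', Sm (Z \ Z') → Sm (Z' \ Z) → (Z ∈ U ↔ Z' ∈ U)
  ρ_inv : ∀ Z Z', Sm (Z \ Z') → Sm (Z' \ Z) → ρ Z = ρ Z'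
  ρ_compl : ∀ Z, ρ Zᶜ = ρ Z
  ρ_mono : ∀ Z Z', Z ⊆ Z' → Z' ∉ U → ρ Z ≤ ρ Z'
  ρ_bot : ∀ Z, ρ ∅ ≤ ρ Z
  rich : ∀ W ∈ U, ∀ Z, ∃ s, s ⊆ W ∧ s ∉ U ∧ ρ Z < ρ s

theorem exists_rank (hcount : ∀ i : Ω, (Iio i).Countable) (e : Ω → Set ℕ)
    (he : Function.Surjective e) : Nonempty (Rank Ω) := by
  classical
  obtain ⟨f, hpos, hdecr, hdec⟩ := exists_tower hcount e
  have hle : ∀ i j, i ≤ j → Sm (f j \ f i) := by
    intro i j hij
    rcases hij.lt_or_eq with h | h
    · exact hdecr i j h
    · rw [h]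
      simpa using sm_empty
  let D : Ω → Set ℕ → Prop := fun i Z => Sm (f i ∩ Z) ∨ Sm (f i \ Z)
  have hDne : ∀ Z, {i | D i Z}.Nonempty := by
    intro Z
    obtain ⟨i, rfl⟩ := he Z
    exact ⟨i, hdec i⟩
  have wf : WellFounded (fun a b : Ω => a < b) := wellFounded_lt
  let ρ : Set ℕ → Ω := fun Z => wf.min {i | D i Z} (hDne Z)
  have hρD : ∀ Z, D (ρ Z) Z := fun Z => wf.min_mem {i | D i Z} (hDne Z)
  have hρle : ∀ Z i, D i Z → ρ Z ≤ i := fun Z i h => not_lt.1 (wf.not_lt_min {i | D i Z} h)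
  have hDmono : ∀ Z i j, i ≤ j → D i Z → D j Z := by
    rintro Z i j hij (h | h)
    · left
      refine ((hle i j hij).union h).mono ?_
      rintro x ⟨hx1, hx2⟩
      by_cases hx3 : x ∈ f i
      · exact Or.inr ⟨hx3, hx2⟩
      · exact Or.inl ⟨hx1, hx3⟩
    · right
      refine ((hle i j hij).union h).mono ?_
      rintro x ⟨hx1, hx2⟩
      by_cases hx3 : x ∈ f i
      · exact Or.inr ⟨hx3, hx2⟩
      · exact Or.inl ⟨hx1, hx3⟩
  let U : Set (Set ℕ) := {Z | ∃ i, Sm (f i \ Z)}
  have hUmono : ∀ Z i j, i ≤ j → Sm (f i \ Z) → Sm (f j \ Z) := by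
    intro Z i j hij h
    refine ((hle i j hij).union h).mono ?_
    rintro x ⟨hx1, hx2⟩
    by_cases hx3 : x ∈ f i
    · exact Or.inr ⟨hx3, hx2⟩
    · exact Or.inl ⟨hx1, hx3⟩
  have hUup : ∀ Z Z', Z ∈ U → Z ⊆ Z' → Z' ∈ U := by
    rintro Z Z' ⟨i, hi⟩ h
    exact ⟨i, hi.mono (sdiff_subset_sdiff_right h)⟩
  have hUinter : ∀ Z Z', Z ∈ U → Z' ∈ U → Z ∩ Z' ∈ U := by
    rintro Z Z' ⟨i, hi⟩ ⟨j, hj⟩
    have h1 := hUmono Z i (max i j) (le_max_left _ _) hi
    have h2 := hUmono Z' j (max i j) (le_max_right _ _) hj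
    refine ⟨max i j, (h1.union h2).mono ?_⟩
    rintro x ⟨hx1, hx2⟩
    by_cases hx3 : x ∈ Z
    · exact Or.inr ⟨hx1, fun h => hx2 ⟨hx3, h⟩⟩
    · exact Or.inl ⟨hx1, hx3⟩
  have hUemp : ∅ ∉ U := by
    rintro ⟨i, hi⟩
    rw [sdiff_empty] at hi
    exact hpos i hi
  have hUcompl : ∀ Z, Z ∈ U ↔ Zᶜ ∉ U := by
    intro Z
    constructor
    · intro h1 h2
      have := hUinter _ _ h1 h2
      rw [inter_compl_self] at this
      exact hUemp this
    · intro h
      obtain ⟨i, hi⟩ := hDne Z
      rcases hi with h1 | h1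
      · exact absurd ⟨i, by rwa [sdiff_compl]⟩ h
      · exact ⟨i, h1⟩
  have hDinv : ∀ Z Z' i, Sm (Z \ Z') → Sm (Z' \ Z) → D i Z → D i Z' := by
    rintro Z Z' i h1 h2 (h | h)
    · left
      refine (h2.union h).mono ?_
      rintro x ⟨hx1, hx2⟩
      by_cases hx3 : x ∈ Z
      · exact Or.inr ⟨hx1, hx3⟩
      · exact Or.inl ⟨hx2, hx3⟩
    · right
      refine (h1.union h).mono ?_
      rintro x ⟨hx1, hx2⟩
      by_cases hx3 : x ∈ Z
      · exact Or.inl ⟨hx3, hx2⟩
      · exact Or.inr ⟨hx1, hx3⟩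
  have hUinv : ∀ Z Z', Sm (Z \ Z') → Z ∈ U → Z' ∈ U := by
    rintro Z Z' h1 ⟨i, hi⟩
    refine ⟨i, (h1.union hi).mono ?_⟩
    rintro x ⟨hx1, hx2⟩
    by_cases hx3 : x ∈ Z
    · exact Or.inl ⟨hx3, hx2⟩
    · exact Or.inr ⟨hx1, hx3⟩
  refine ⟨⟨U, ρ, hUup, hUinter, hUcompl, ?_, ?_, ?_, ?_, ?_, ?_⟩⟩
  · intro Z Z' h1 h2
    exact ⟨hUinv _ _ h1, hUinv _ _ h2⟩
  · intro Z Z' h1 h2
    exact le_antisymm (hρle _ _ (hDinv _ _ _ h2 h1 (hρD Z')))
      (hρle _ _ (hDinv _ _ _ h1 h2 (hρD Z)))
  · intro Z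
    have h1 : ∀ i Z, D i Z → D i Zᶜ := by
      rintro i Z (h | h)
      · right
        rwa [sdiff_compl]
      · left
        rwa [← sdiff_eq]
    apply le_antisymm
    · exact hρle _ _ (h1 _ _ (hρD Z))
    · apply hρle
      have := h1 _ _ (hρD Zᶜ)
      rwa [compl_compl] at this
  · intro Z Z' h1 h2
    apply hρle
    rcases hρD Z' with h | h
    · exact Or.inl (h.mono (inter_subset_inter_right _ h1))
    · exact absurd ⟨_, h⟩ h2
  · intro Z
    apply hρle
    left
    rw [inter_empty]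
    exact sm_empty
  · rintro W ⟨j, hj⟩ Z
    set β := ρ Z with hβ
    have h1 : ¬ Sm (f β ∩ W) := by
      intro h
      apply hpos (max β j)
      have h2 := hle β (max β j) (le_max_left _ _)
      have h3 := hUmono W j (max β j) (le_max_right _ _) hj
      refine ((h2.union h).union h3).mono ?_
      intro x hx
      by_cases hx1 : x ∈ f β
      · by_cases hx2 : x ∈ W
        · exact Or.inl (Or.inr ⟨hx1, hx2⟩)
        · exact Or.inr ⟨hx, hx2⟩
      · exact Or.inl (Or.inl ⟨hx, hx1⟩)
    obtain ⟨s, hs1, hs2, hs3⟩ := split h1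
    have key : ∀ t, t ⊆ f β ∩ W → ¬ Sm t → ¬ Sm ((f β ∩ W) \ t) → t ∉ U →
        ∃ s, s ⊆ W ∧ s ∉ U ∧ β < ρ s := by
      intro t ht1 ht2 ht3 htU
      refine ⟨t, ht1.trans inter_subset_right, htU, ?_⟩
      by_contra hlt
      push Not at hlt
      rcases hDmono _ _ _ hlt (hρD t) with h | h
      · apply ht2
        refine h.mono ?_
        intro x hx
        exact ⟨(ht1 hx).1, hx⟩
      · apply ht3
        refine h.mono ?_
        rintro x ⟨hx1, hx2⟩
        exact ⟨hx1.1, hx2⟩
    by_cases hsU : s ∈ U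
    · refine key ((f β ∩ W) \ s) sdiff_subset hs3 ?_ ?_
      · rw [sdiff_sdiff_cancel_left hs1]
        exact hs2
      · intro h
        have := hUinter _ _ hsU h
        apply hUemp
        refine hUup _ _ this ?_
        rintro x ⟨hx1, hx2⟩
        exact absurd hx1 hx2.2
    · exact key s hs1 hs2 hs3 hsU

end

end Vale.Agent.P068
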