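import Vale.Agent.P068.Tower

open Set

namespace Vale.Agent.P068

noncomputable section

section fin

variable {α : Type*}

/-- finite exchange equivalence -/
def Eqv (B B' : Set α) : Prop := (B \ B').Finite ∧ (B \ B').encard = (B' \ B).encard

theorem Eqv.refl (B : Set α) : Eqv B B := by
  unfold Eqv
  simp

theorem Eqv.fin' {B B' : Set α} (h : Eqv B B') : (B' \ B).Finite := by
  have h1 := h.1
  rw [← encard_lt_top_iff] at h1 ⊢
  rw [← h.2]
  exact h1

theorem Eqv.symm {B B' : Set α} (h : Eqv B B') : Eqv B' B := ⟨h.fin', h.2.symm⟩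

theorem Eqv.trans {A B C : Set α} (h : Eqv A B) (h' : Eqv B C) : Eqv A C := by
  have e1 := encard_sdiff_add_encard_inter (A \ B) C
  have e2 := encard_sdiff_add_encard_inter (C \ B) A
  have e3 := encard_sdiff_add_encard_inter (B \ C) A
  have e4 := encard_sdiff_add_encard_inter (A \ C) B
  have e5 := encard_sdiff_add_encard_inter (C \ A) B
  have e6 := encard_sdiff_add_encard_inter (B \ A) C
  have s1 : (A \ C) \ B = (A \ B) \ C := by ext x; simp only [mem_sdiff]; tauto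
  have s2 : (B \ A) \ C = (B \ C) \ A := by ext x; simp only [mem_sdiff]; tauto
  have s3 : (C \ A) \ B = (C \ B) \ A := by ext x; simp only [mem_sdiff]; tauto
  have s4 : (C \ B) ∩ A = (A \ B) ∩ C := by ext x; simp only [mem_sdiff, mem_inter_iff]; tauto
  have s5 : (A \ C) ∩ B = (B \ C) ∩ A := by ext x; simp only [mem_sdiff, mem_inter_iff]; tauto
  have s6 : (B \ A) ∩ C = (C \ A) ∩ B := by ext x; simp only [mem_sdiff, mem_inter_iff]; tauto
  rw [s1, s5] at e4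
  rw [s4] at e2
  rw [s3] at e5
  rw [s2, s6] at e6
  have f1 : (A \ C).Finite := by
    refine (h.1.union h'.1).subset ?_
    intro x hx
    by_cases hxB : x ∈ B
    · exact Or.inr ⟨hxB, hx.2⟩
    · exact Or.inl ⟨hx.1, hxB⟩
  refine ⟨f1, ?_⟩
  have g1 : ((A \ B) \ C).encard ≠ ⊤ := by
    rw [encard_ne_top_iff]
    exact h.1.subset sdiff_subset
  have g2 : ((A \ B) ∩ C).encard ≠ ⊤ := by
    rw [encard_ne_top_iff]
    exact h.1.subset inter_subset_left
  have g3 : ((B \ C) \ A).encard ≠ ⊤ := by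
    rw [encard_ne_top_iff]
    exact h'.1.subset sdiff_subset
  have g4 : ((B \ C) ∩ A).encard ≠ ⊤ := by
    rw [encard_ne_top_iff]
    exact h'.1.subset inter_subset_left
  have g5 : ((C \ B) \ A).encard ≠ ⊤ := by
    rw [encard_ne_top_iff]
    exact h'.fin'.subset sdiff_subset
  have g6 : ((C \ A) ∩ B).encard ≠ ⊤ := by
    rw [encard_ne_top_iff]
    exact h.fin'.subset (by
      rintro x ⟨hx1, hx2⟩
      exact ⟨hx2, hx1.2⟩)
  have h1 := h.2
  have h2 := h'.2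
  rw [← e1, ← e6] at h1
  rw [← e3, ← e2] at h2
  rw [← e4, ← e5]
  lift ((A \ B) \ C).encard to ℕ using g1 with a
  lift ((A \ B) ∩ C).encard to ℕ using g2 with p
  lift ((B \ C) \ A).encard to ℕ using g3 with b
  lift ((B \ C) ∩ A).encard to ℕ using g4 with q
  lift ((C \ B) \ A).encard to ℕ using g5 with c
  lift ((C \ A) ∩ B).encard to ℕ using g6 with r
  norm_cast at h1 h2 ⊢
  omega

theorem Eqv.exch {B : Set α} {e f : α} (he : e ∈ B) (hf : f ∉ B) :
    Eqv B (insert f (B \ {e})) := by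
  have hef : e ≠ f := fun h => hf (h ▸ he)
  have h1 : B \ insert f (B \ {e}) = {e} := by
    ext x
    simp only [mem_sdiff, mem_insert_iff, mem_singleton_iff]
    constructor
    · rintro ⟨hx1, hx2⟩
      by_contra hxe
      exact hx2 (Or.inr ⟨hx1, hxe⟩)
    · rintro rfl
      refine ⟨he, ?_⟩
      rintro (h | h)
      · exact hef h
      · exact h.2 rfl
  have h2 : insert f (B \ {e}) \ B = {f} := by
    ext x
    simp only [mem_sdiff, mem_insert_iff, mem_singleton_iff]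
    constructor
    · rintro ⟨h | h, hx2⟩
      · exact h
      · exact absurd h.1 hx2
    · rintro rfl
      exact ⟨Or.inl rfl, hf⟩
  refine ⟨?_, ?_⟩
  · rw [h1]
    exact finite_singleton e
  · rw [h1, h2]
    simp

theorem Eqv.eq_of_subset {B B' : Set α} (h : Eqv B B') (hs : B ⊆ B') : B = B' := by
  apply Subset.antisymm hs
  have h1 : B \ B' = ∅ := sdiff_eq_empty.2 hs
  have h2 := h.2
  rw [h1, encard_empty] at h2
  have h3 : B' \ B = ∅ := encard_eq_zero.1 h2.symm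
  exact sdiff_eq_empty.1 h3

/-- `X` is at or below the level of `B` -/
def Low (B X : Set α) : Prop := (X \ B).Finite ∧ (X \ B).encard ≤ (B \ X).encard

/-- `Y` is at or above the level of `B` -/
def High (B Y : Set α) : Prop := (B \ Y).Finite ∧ (B \ Y).encard ≤ (Y \ B).encard

theorem low_empty (B : Set α) : Low B ∅ := by
  unfold Low
  simp

theorem high_univ (B : Set α) : High B univ := by
  unfold High
  simp

theorem low_or_high {B X : Set α} (h : (X \ B).Finite ∨ (B \ X).Finite) : Low B X ∨ High B X := by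
  rcases le_total (X \ B).encard (B \ X).encard with h1 | h1
  · rcases h with h | h
    · exact Or.inl ⟨h, h1⟩
    · left
      refine ⟨?_, h1⟩
      rw [← encard_lt_top_iff] at h ⊢
      exact h1.trans_lt h
  · rcases h with h | h
    · right
      refine ⟨?_, h1⟩
      rw [← encard_lt_top_iff] at h ⊢
      exact h1.trans_lt h
    · exact Or.inr ⟨h, h1⟩

theorem between {B X Y : Set α} (hXY : X ⊆ Y) (hX : Low B X) (hY : High B Y) :
    ∃ B', Eqv B B' ∧ X ⊆ B' ∧ B' ⊆ Y := by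
  set k := max (X \ B).encard (B \ Y).encard with hk
  have hs1 : B \ Y ⊆ B \ X := sdiff_subset_sdiff_right hXY
  have hs2 : X \ B ⊆ Y \ B := sdiff_subset_sdiff_left hXY
  obtain ⟨R, hR1, hR2, hR3⟩ := exists_superset_subset_encard_eq hs1 (k := k) (le_max_right _ _)
    (max_le hX.2 (encard_le_encard hs1))
  obtain ⟨T, hT1, hT2, hT3⟩ := exists_superset_subset_encard_eq hs2 (k := k) (le_max_left _ _)
    (max_le (encard_le_encard hs2) hY.2)
  have hRfin : R.Finite := by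
    rw [← encard_lt_top_iff, hR3]
    exact max_lt (encard_lt_top_iff.2 hX.1) (encard_lt_top_iff.2 hY.1)
  have h1 : B \ ((B \ R) ∪ T) = R := by
    ext x
    simp only [mem_sdiff, mem_union]
    constructor
    · rintro ⟨hx1, hx2⟩
      by_contra hxR
      exact hx2 (Or.inl ⟨hx1, hxR⟩)
    · intro hx
      refine ⟨(hR2 hx).1, ?_⟩
      rintro (h | h)
      · exact h.2 hx
      · exact (hT2 h).2 (hR2 hx).1
  have h2 : ((B \ R) ∪ T) \ B = T := by
    ext x
    simp only [mem_sdiff, mem_union]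
    constructor
    · rintro ⟨h | h, hx2⟩
      · exact absurd h.1 hx2
      · exact h
    · intro hx
      exact ⟨Or.inr hx, (hT2 hx).2⟩
  refine ⟨(B \ R) ∪ T, ⟨?_, ?_⟩, ?_, ?_⟩
  · rw [h1]
    exact hRfin
  · rw [h1, h2, hR3, hT3]
  · intro x hx
    by_cases hxB : x ∈ B
    · exact Or.inl ⟨hxB, fun h => (hR2 h).2 hx⟩
    · exact Or.inr (hT1 ⟨hx, hxB⟩)
  · rintro x (hx | hx)
    · by_contra hxY
      exact hx.2 (hR1 ⟨hx.1, hxY⟩)
    · exact (hT2 hx).1

end fin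

/-- ground set of the uniform matroid -/
abbrev GG := Bool × ℕ

/-- in-part -/
def aP (X : Set GG) : Set ℕ := {k | (false, k) ∈ X}

/-- complement of the out-part -/
def bP (X : Set GG) : Set ℕ := {k | (true, k) ∉ X}

theorem aP_mono {X Y : Set GG} (h : X ⊆ Y) : aP X ⊆ aP Y := fun _ hk => h hk

theorem bP_anti {X Y : Set GG} (h : X ⊆ Y) : bP Y ⊆ bP X := fun _ hk hk' => hk (h hk')

variable {Ω : Type} [LinearOrder Ω]

theorem Rank.not_mem_compl (R : Rank Ω) {Z : Set ℕ} (h : Z ∈ R.U) : Zᶜ ∉ R.U :=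
  (R.U_compl Z).1 h

theorem Rank.mem_of_compl (R : Rank Ω) {Z : Set ℕ} (h : Zᶜ ∉ R.U) : Z ∈ R.U :=
  (R.U_compl Z).2 h

theorem Rank.ρ_anti (R : Rank Ω) {Z Z' : Set ℕ} (h : Z ⊆ Z') (hZ : Z ∈ R.U) : R.ρ Z' ≤ R.ρ Z := by
  rw [← R.ρ_compl Z, ← R.ρ_compl Z']
  exact R.ρ_mono _ _ (compl_subset_compl.2 h) (R.not_mem_compl hZ)

theorem Rank.empty_notMem (R : Rank Ω) : ∅ ∉ R.U := by
  intro h
  have := R.not_mem_compl h
  exact this (R.U_up _ _ h (empty_subset _))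

theorem Rank.univ_mem (R : Rank Ω) : univ ∈ R.U := by
  apply R.mem_of_compl
  rw [compl_univ]
  exact R.empty_notMem

theorem Rank.ρ_univ (R : Rank Ω) (Z : Set ℕ) : R.ρ univ ≤ R.ρ Z := by
  rw [← R.ρ_compl univ, compl_univ]
  exact R.ρ_bot Z

/-- sets that must be dependent -/
def Hi (R : Rank Ω) (X : Set GG) : Prop :=
  aP X ∈ R.U ∧ (bP X ∉ R.U ∨ R.ρ (aP X) ≤ R.ρ (bP X))

/-- sets that must be nonspanning -/
def Lo (R : Rank Ω) (X : Set GG) : Prop :=
  aP X ∉ R.U ∧ (bP X ∈ R.U ∨ R.ρ (aP X) ≤ R.ρ (bP X))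

/-- sets that may be bases -/
def Mid (R : Rank Ω) (X : Set GG) : Prop := ¬ Hi R X ∧ ¬ Lo R X

variable (R : Rank Ω)

theorem Hi_up {X Y : Set GG} (h : X ⊆ Y) (hX : Hi R X) : Hi R Y := by
  obtain ⟨h1, h2⟩ := hX
  have ha : aP Y ∈ R.U := R.U_up _ _ h1 (aP_mono h)
  refine ⟨ha, ?_⟩
  by_cases hb : bP Y ∈ R.U
  · right
    have hb' : bP X ∈ R.U := R.U_up _ _ hb (bP_anti h)
    rcases h2 with h2 | h2
    · exact absurd hb' h2
    · exact (R.ρ_anti (aP_mono h) h1).trans (h2.trans (R.ρ_anti (bP_anti h) hb))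
  · exact Or.inl hb

theorem Lo_down {X Y : Set GG} (h : X ⊆ Y) (hY : Lo R Y) : Lo R X := by
  obtain ⟨h1, h2⟩ := hY
  have ha : aP X ∉ R.U := fun h' => h1 (R.U_up _ _ h' (aP_mono h))
  refine ⟨ha, ?_⟩
  by_cases hb : bP X ∈ R.U
  · exact Or.inl hb
  · right
    rcases h2 with h2 | h2
    · exact absurd (R.U_up _ _ h2 (bP_anti h)) hb
    · exact (R.ρ_mono _ _ (aP_mono h) h1).trans (h2.trans (R.ρ_mono _ _ (bP_anti h) hb))

theorem not_Hi_of_Lo {X : Set GG} (h : Lo R X) : ¬ Hi R X := fun h' => h.1 h'.1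

theorem Hi_univ : Hi R univ := by
  refine ⟨?_, Or.inl ?_⟩
  · have : aP univ = univ := by ext; simp [aP]
    rw [this]
    exact R.univ_mem
  · have : bP univ = ∅ := by ext; simp [bP]
    rw [this]
    exact R.empty_notMem

theorem Lo_empty : Lo R ∅ := by
  refine ⟨?_, Or.inl ?_⟩
  · have : aP ∅ = ∅ := by ext; simp [aP]
    rw [this]
    exact R.empty_notMem
  · have : bP ∅ = univ := by ext; simp [bP]
    rw [this]
    exact R.univ_mem

/-- equality up to small sets -/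
def Thin (X Y : Set GG) : Prop :=
  Sm (aP X \ aP Y) ∧ Sm (aP Y \ aP X) ∧ Sm (bP X \ bP Y) ∧ Sm (bP Y \ bP X)

theorem Thin.symm {X Y : Set GG} (h : Thin X Y) : Thin Y X := ⟨h.2.1, h.1, h.2.2.2, h.2.2.1⟩

theorem Thin.Hi {X Y : Set GG} (h : Thin X Y) (hX : Hi R X) : Hi R Y := by
  have e1 := R.U_inv _ _ h.1 h.2.1
  have e2 := R.ρ_inv _ _ h.1 h.2.1
  have e3 := R.U_inv _ _ h.2.2.1 h.2.2.2
  have e4 := R.ρ_inv _ _ h.2.2.1 h.2.2.2
  unfold P068.Hi at *
  rw [← e1, ← e2, ← e3, ← e4]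
  exact hX

theorem Thin.Lo {X Y : Set GG} (h : Thin X Y) (hX : Lo R X) : Lo R Y := by
  have e1 := R.U_inv _ _ h.1 h.2.1
  have e2 := R.ρ_inv _ _ h.1 h.2.1
  have e3 := R.U_inv _ _ h.2.2.1 h.2.2.2
  have e4 := R.ρ_inv _ _ h.2.2.1 h.2.2.2
  unfold P068.Lo at *
  rw [← e1, ← e2, ← e3, ← e4]
  exact hX

theorem Thin.Mid {X Y : Set GG} (h : Thin X Y) (hX : Mid R X) : Mid R Y :=
  ⟨fun h' => hX.1 (h.symm.Hi R h'), fun h' => hX.2 (h.symm.Lo R h')⟩

theorem thin_of_fin {X Y : Set GG} (h1 : (X \ Y).Finite) (h2 : (Y \ X).Finite) : Thin X Y := by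
  have key : ∀ (c : Bool) {X Y : Set GG}, (X \ Y).Finite →
      {k : ℕ | (c, k) ∈ X ∧ (c, k) ∉ Y}.Finite := by
    intro c X Y h
    have hinj : Set.InjOn (fun k : ℕ => (c, k)) {k : ℕ | (c, k) ∈ X ∧ (c, k) ∉ Y} := by
      intro a _ b _ hab
      exact (Prod.mk.inj hab).2
    refine Set.Finite.of_finite_image (h.subset ?_) hinj
    rintro _ ⟨k, hk, rfl⟩
    exact hk
  refine ⟨sm_of_finite ((key false h1).subset ?_), sm_of_finite ((key false h2).subset ?_),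
    sm_of_finite ((key true h2).subset ?_), sm_of_finite ((key true h1).subset ?_)⟩
  · rintro k ⟨hk1, hk2⟩
    exact ⟨hk1, hk2⟩
  · rintro k ⟨hk1, hk2⟩
    exact ⟨hk1, hk2⟩
  · rintro k ⟨hk1, hk2⟩
    exact ⟨not_not.1 hk2, hk1⟩
  · rintro k ⟨hk1, hk2⟩
    exact ⟨not_not.1 hk2, hk1⟩

/-- set with prescribed parts -/
def mkS (c d : Set ℕ) : Set GG := {x | (x.1 = false ∧ x.2 ∈ c) ∨ (x.1 = true ∧ x.2 ∉ d)}

theorem aP_mkS (c d : Set ℕ) : aP (mkS c d) = c := by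
  ext k
  simp [aP, mkS]

theorem bP_mkS (c d : Set ℕ) : bP (mkS c d) = d := by
  ext k
  simp [bP, mkS]

theorem subset_iff_parts {X Y : Set GG} : X ⊆ Y ↔ aP X ⊆ aP Y ∧ bP Y ⊆ bP X := by
  constructor
  · intro h
    exact ⟨aP_mono h, bP_anti h⟩
  · rintro ⟨h1, h2⟩ ⟨c, k⟩ hx
    cases c with
    | false => exact h1 hx
    | true =>
      by_contra hk
      exact h2 (show k ∈ bP Y from hk) hx

theorem interpolate {X Y : Set GG} (hXY : X ⊆ Y) (hX : ¬ Hi R X) (hY : ¬ Lo R Y) :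
    ∃ B, X ⊆ B ∧ B ⊆ Y ∧ Mid R B := by
  by_cases hX' : Lo R X
  swap
  · exact ⟨X, Subset.rfl, hXY, hX, hX'⟩
  by_cases hY' : Hi R Y
  swap
  · exact ⟨Y, hXY, Subset.rfl, hY', hY⟩
  have hW : aP Y \ aP X ∈ R.U := by
    have h1 : (aP X)ᶜ ∈ R.U := by
      apply R.mem_of_compl
      rw [compl_compl]
      exact hX'.1
    have := R.U_inter _ _ hY'.1 h1
    rwa [← sdiff_eq] at this
  obtain ⟨s, hs1, hs2, hs3⟩ := R.rich _ hW (bP Y)
  by_cases hb : bP Y ∈ R.U
  · refine ⟨mkS (aP Y \ s) (bP Y), ?_, ?_, ?_, ?_⟩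
    · rw [subset_iff_parts, aP_mkS, bP_mkS]
      refine ⟨fun k hk => ⟨aP_mono hXY hk, fun hks => (hs1 hks).2 hk⟩, bP_anti hXY⟩
    · rw [subset_iff_parts, aP_mkS, bP_mkS]
      exact ⟨sdiff_subset, Subset.rfl⟩
    · intro h
      unfold Hi at h
      rw [aP_mkS, bP_mkS] at h
      rcases h.2 with h2 | h2
      · exact h2 hb
      · have h3 : R.ρ sᶜ ≤ R.ρ (aP Y \ s) :=
          R.ρ_anti (fun k hk => hk.2) h.1
        rw [R.ρ_compl] at h3
        exact absurd (hs3.trans_le (h3.trans h2)) (lt_irrefl _)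
    · intro h
      unfold Lo at h
      rw [aP_mkS, bP_mkS] at h
      apply h.1
      have h1 : sᶜ ∈ R.U := by
        apply R.mem_of_compl
        rw [compl_compl]
        exact hs2
      have := R.U_inter _ _ hY'.1 h1
      rwa [← sdiff_eq] at this
  · have hc : aP X ∪ s ∉ R.U := by
      intro h
      have h1 : (aP X)ᶜ ∈ R.U := by
        apply R.mem_of_compl
        rw [compl_compl]
        exact hX'.1
      have := R.U_inter _ _ h h1
      apply hs2
      refine R.U_up _ _ this ?_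
      rintro k ⟨hk1 | hk1, hk2⟩
      · exact absurd hk1 hk2
      · exact hk1
    refine ⟨mkS (aP X ∪ s) (bP Y), ?_, ?_, ?_, ?_⟩
    · rw [subset_iff_parts, aP_mkS, bP_mkS]
      exact ⟨subset_union_left, bP_anti hXY⟩
    · rw [subset_iff_parts, aP_mkS, bP_mkS]
      refine ⟨union_subset (aP_mono hXY) (fun k hk => (hs1 hk).1), Subset.rfl⟩
    · intro h
      unfold Hi at h
      rw [aP_mkS, bP_mkS] at h
      exact hc h.1
    · intro h
      unfold Lo at h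
      rw [aP_mkS, bP_mkS] at h
      rcases h.2 with h2 | h2
      · exact hb h2
      · have h3 : R.ρ s ≤ R.ρ (aP X ∪ s) := R.ρ_mono _ _ subset_union_right hc
        exact absurd (hs3.trans_le (h3.trans h2)) (lt_irrefl _)

/-- hitting countably many infinite sets by disjoint thin sets -/
theorem hits (PP QQ : Set (Set GG)) (hPP : PP.Countable) (hQQ : QQ.Countable)
    (hP : ∀ P ∈ PP, P.Infinite) (hQ : ∀ Q ∈ QQ, Q.Infinite) :
    ∃ Rr T : Set GG, Disjoint Rr T ∧ Sm {k | (false, k) ∈ Rr} ∧ Sm {k | (true, k) ∈ Rr} ∧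
      Sm {k | (false, k) ∈ T} ∧ Sm {k | (true, k) ∈ T} ∧ (∀ P ∈ PP, (Rr ∩ P).Infinite) ∧
      (∀ Q ∈ QQ, (T ∩ Q).Infinite) ∧ Rr ⊆ ⋃₀ PP ∧ T ⊆ ⋃₀ QQ := by
  classical
  let KK : Set (Bool × Set GG) := insert (true, univ) (((fun P => (true, P)) '' PP) ∪
    ((fun P => (false, P)) '' QQ))
  have hKK : KK.Countable := ((hPP.image _).union (hQQ.image _)).insert _
  have hKKinf : ∀ K ∈ KK, K.2.Infinite := by
    rintro K (rfl | ⟨P, hP', rfl⟩ | ⟨Q, hQ', rfl⟩)
    · exact infinite_univ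
    · exact hP P hP'
    · exact hQ Q hQ'
  obtain ⟨s, hs⟩ := hKK.exists_eq_range ⟨_, mem_insert _ _⟩
  have hsmem : ∀ n, s n ∈ KK := fun n => by rw [hs]; exact mem_range_self n
  have hcol : ∀ n, ∃ c : Bool, {k : ℕ | (c, k) ∈ (s n).2}.Infinite := by
    intro n
    by_contra hcon
    push Not at hcon
    have h1 := hKKinf _ (hsmem n)
    apply h1
    have h2 : (s n).2 ⊆ ((fun k : ℕ => (false, k)) '' {k : ℕ | (false, k) ∈ (s n).2}) ∪
        ((fun k : ℕ => (true, k)) '' {k : ℕ | (true, k) ∈ (s n).2}) := by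
      rintro ⟨c, k⟩ hk
      cases c with
      | false => exact Or.inl ⟨k, hk, rfl⟩
      | true => exact Or.inr ⟨k, hk, rfl⟩
    exact ((((hcon false)).image _).union (((hcon true)).image _)).subset h2
  choose col hcol using hcol
  let ix : ℕ → ℕ := fun j => (Nat.unpair j).1
  obtain ⟨r, hrm, hrC, hrsm⟩ := thin_hit (fun j => {k : ℕ | (col (ix j), k) ∈ (s (ix j)).2})
    (fun j => hcol (ix j))
  let pt : ℕ → GG := fun j => (col (ix j), r j)
  have hptinj : Function.Injective pt := by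
    intro a b hab
    exact hrm.injective (Prod.mk.inj hab).2
  let R0 : Set GG := {x | ∃ j, (s (ix j)).1 = true ∧ pt j = x}
  let T0 : Set GG := {x | ∃ j, (s (ix j)).1 = false ∧ pt j = x}
  have hsmR : ∀ c, Sm {k | (c, k) ∈ R0} := fun c => hrsm.mono (by
    rintro k ⟨j, _, hj⟩
    exact ⟨j, (Prod.mk.inj hj).2⟩)
  have hsmT : ∀ c, Sm {k | (c, k) ∈ T0} := fun c => hrsm.mono (by
    rintro k ⟨j, _, hj⟩
    exact ⟨j, (Prod.mk.inj hj).2⟩)
  have hinf : ∀ n, {x | ∃ j, ix j = n ∧ pt j = x}.Infinite := by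
    intro n
    have h1 : (fun t => pt (Nat.pair n t)) '' univ ⊆ {x | ∃ j, ix j = n ∧ pt j = x} := by
      rintro _ ⟨t, _, rfl⟩
      exact ⟨Nat.pair n t, by simp [ix], rfl⟩
    refine (Set.Infinite.image ?_ infinite_univ).mono h1
    intro a _ b _ hab
    have := hptinj hab
    exact (Nat.pair_eq_pair.1 this).2
  refine ⟨R0 ∩ ⋃₀ PP, T0 ∩ ⋃₀ QQ, ?_, (hsmR false).mono (fun k hk => hk.1),
    (hsmR true).mono (fun k hk => hk.1), (hsmT false).mono (fun k hk => hk.1),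
    (hsmT true).mono (fun k hk => hk.1), ?_, ?_, inter_subset_right, inter_subset_right⟩
  · rw [Set.disjoint_left]
    rintro x ⟨⟨j, hj1, hj2⟩, _⟩ ⟨⟨j', hj1', hj2'⟩, _⟩
    have : j = j' := hptinj (hj2.trans hj2'.symm)
    subst this
    rw [hj1] at hj1'
    exact absurd hj1' (by simp)
  · intro P hP'
    have h1 : (true, P) ∈ KK := Or.inr (Or.inl ⟨P, hP', rfl⟩)
    rw [hs] at h1
    obtain ⟨n, hn⟩ := h1
    refine (hinf n).mono ?_
    rintro x ⟨j, hj1, rfl⟩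
    have h2 : pt j ∈ P := by
      have := hrC j
      simp only [mem_ofPred_eq] at this
      rw [hj1, hn] at this
      show (col (ix j), r j) ∈ P
      rw [hj1]
      exact this
    refine ⟨⟨⟨j, ?_, rfl⟩, P, hP', h2⟩, h2⟩
    rw [hj1, hn]
  · intro Q hQ'
    have h1 : (false, Q) ∈ KK := Or.inr (Or.inr ⟨Q, hQ', rfl⟩)
    rw [hs] at h1
    obtain ⟨n, hn⟩ := h1
    refine (hinf n).mono ?_
    rintro x ⟨j, hj1, rfl⟩
    have h2 : pt j ∈ Q := by
      have := hrC j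
      simp only [mem_ofPred_eq] at this
      rw [hj1, hn] at this
      show (col (ix j), r j) ∈ Q
      rw [hj1]
      exact this
    refine ⟨⟨⟨j, ?_, rfl⟩, Q, hQ', h2⟩, h2⟩
    rw [hj1, hn]

theorem stage (CC : Set (Set GG)) (hCC : CC.Countable) {X Y : Set GG} (hXY : X ⊆ Y)
    (hX : ¬ Hi R X) (hY : ¬ Lo R Y) (hinc : ∀ B ∈ CC, (B \ X).Infinite ∧ (Y \ B).Infinite) :
    ∃ B', X ⊆ B' ∧ B' ⊆ Y ∧ Mid R B' ∧ ∀ B ∈ CC, (B \ B').Infinite ∧ (B' \ B).Infinite := by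
  obtain ⟨B0, hB1, hB2, hB3⟩ := interpolate R hXY hX hY
  let PP : Set (Set GG) := ((fun B => (B ∩ Y) \ X) '' CC) ∩ {P | P.Infinite}
  let QQ : Set (Set GG) := ((fun B => (Y \ X) \ B) '' CC) ∩ {P | P.Infinite}
  obtain ⟨Rr, T, hdis, hR1, hR2, hT1, hT2, hRP, hTQ, hRs, hTs⟩ := hits PP QQ
    ((hCC.image _).mono inter_subset_left) ((hCC.image _).mono inter_subset_left)
    (fun P hP => hP.2) (fun Q hQ => hQ.2)
  have hRsub : ∀ x ∈ Rr, x ∈ Y ∧ x ∉ X := by
    intro x hx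
    obtain ⟨P, ⟨⟨B, hB, rfl⟩, _⟩, hxP⟩ := hRs hx
    exact ⟨hxP.1.2, hxP.2⟩
  have hTsub : ∀ x ∈ T, x ∈ Y ∧ x ∉ X := by
    intro x hx
    obtain ⟨P, ⟨⟨B, hB, rfl⟩, _⟩, hxP⟩ := hTs hx
    exact hxP.1
  have hXB : X ⊆ (B0 \ Rr) ∪ T := fun x hx => Or.inl ⟨hB1 hx, fun h => (hRsub x h).2 hx⟩
  have hBY : (B0 \ Rr) ∪ T ⊆ Y := by
    rintro x (hx | hx)
    · exact hB2 hx.1
    · exact (hTsub x hx).1
  refine ⟨(B0 \ Rr) ∪ T, hXB, hBY, ?_, ?_⟩
  · refine Thin.Mid R ?_ hB3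
    refine ⟨hR1.mono ?_, hT1.mono ?_, hT2.mono ?_, hR2.mono ?_⟩
    · rintro k ⟨hk1, hk2⟩
      by_contra hk3
      exact hk2 (Or.inl ⟨hk1, hk3⟩)
    · rintro k ⟨hk1 | hk1, hk2⟩
      · exact absurd hk1.1 hk2
      · exact hk1
    · rintro k ⟨hk1, hk2⟩
      have hk3 : (true, k) ∈ (B0 \ Rr) ∪ T := not_not.1 hk2
      rcases hk3 with hk3 | hk3
      · exact absurd hk3.1 hk1
      · exact hk3
    · rintro k ⟨hk1, hk2⟩
      have hk3 : (true, k) ∈ B0 := not_not.1 hk2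
      by_contra hk4
      exact hk1 (Or.inl ⟨hk3, hk4⟩)
  · intro B hB
    obtain ⟨h1, h2⟩ := hinc B hB
    constructor
    · by_cases hfin : (B \ Y).Finite
      · have hP : ((B ∩ Y) \ X).Infinite := by
          intro hf
          apply h1
          refine (hf.union hfin).subset ?_
          rintro x ⟨hx1, hx2⟩
          by_cases hxY : x ∈ Y
          · exact Or.inl ⟨⟨hx1, hxY⟩, hx2⟩
          · exact Or.inr ⟨hx1, hxY⟩
        refine (hRP _ ⟨⟨B, hB, rfl⟩, hP⟩).mono ?_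
        rintro x ⟨hx1, hx2⟩
        refine ⟨hx2.1.1, ?_⟩
        rintro (h | h)
        · exact h.2 hx1
        · exact (Set.disjoint_left.1 hdis) hx1 h
      · refine Set.Infinite.mono ?_ hfin
        rintro x ⟨hx1, hx2⟩
        exact ⟨hx1, fun h => hx2 (hBY h)⟩
    · by_cases hfin : (X \ B).Finite
      · have hQ : ((Y \ X) \ B).Infinite := by
          intro hf
          apply h2
          refine (hf.union hfin).subset ?_
          rintro x ⟨hx1, hx2⟩
          by_cases hxX : x ∈ X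
          · exact Or.inr ⟨hxX, hx2⟩
          · exact Or.inl ⟨⟨hx1, hxX⟩, hx2⟩
        refine (hTQ _ ⟨⟨B, hB, rfl⟩, hQ⟩).mono ?_
        rintro x ⟨hx1, hx2⟩
        exact ⟨Or.inr hx1, hx2.2⟩
      · refine Set.Infinite.mono ?_ hfin
        rintro x ⟨hx1, hx2⟩
        exact ⟨hXB hx1, hx2⟩

end

end Vale.Agent.P068
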